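import Vale.Agent.P126.Dis.Left

open scoped Pointwise RealInnerProductSpace

namespace Vale.Agent.Results.P126.DualityFails

open Vale.Agent.P126

/-- The duality conjecture for metric entropy is false; moreover each of its two inequalities
fails for all constants `a, b ≥ 1`. -/
theorem result :
    (¬ ∃ a b : ℝ, 1 ≤ a ∧ 1 ≤ b ∧ ∀ n : ℕ, 1 ≤ n →
      ∀ K L : Set (EuclideanSpace ℝ (Fin n)), IsSymBody K → IsSymBody L →
        1 / b * Real.log (coverNum (polarBody L) (a • polarBody K)) ≤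
            Real.log (coverNum K L) ∧
          Real.log (coverNum K L) ≤
            b * Real.log (coverNum (polarBody L) (a⁻¹ • polarBody K))) ∧
    (∀ a b : ℝ, 1 ≤ a → 1 ≤ b →
      ∃ n : ℕ, 1 ≤ n ∧ ∃ K L : Set (EuclideanSpace ℝ (Fin n)), IsSymBody K ∧ IsSymBody L ∧
        b * Real.log (coverNum (polarBody L) (a⁻¹ • polarBody K)) <
          Real.log (coverNum K L)) ∧
    (∀ a b : ℝ, 1 ≤ a → 1 ≤ b →
      ∃ n : ℕ, 1 ≤ n ∧ ∃ K L : Set (EuclideanSpace ℝ (Fin n)), IsSymBody K ∧ IsSymBody L ∧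
        Real.log (coverNum K L) <
          1 / b * Real.log (coverNum (polarBody L) (a • polarBody K))) := by
  refine ⟨?_, fun a b ha _ => Dis.duality_fails a b ha, fun a b ha hb => ?_⟩
  · rintro ⟨a, b, ha, hb, h⟩
    obtain ⟨n, hn, K, L, hK, hL, hlt⟩ := Dis.duality_fails a b ha
    exact absurd (h n hn K L hK hL).2 (not_le.2 hlt)
  · obtain ⟨n, hn, K, L, hK, hL, hlt⟩ := Dis.duality_fails_left a b ha
    refine ⟨n, hn, K, L, hK, hL, ?_⟩
    have hb0 : 0 < b := by linarith
    rw [one_div, lt_inv_mul_iff₀ hb0]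
    exact hlt

end Vale.Agent.Results.P126.DualityFails
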