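import Vale.Agent.P126.NearLinear

open scoped Pointwise RealInnerProductSpace

namespace Vale.Agent.Results.P126.NearLinearDuality

open Vale.Agent.P126

/-- Duality of metric entropy for arbitrary pairs of symmetric convex bodies, dimension-free:
with every exponent `1 + δ` and constants of order `1 / δ ^ 2`, and with losses polylogarithmic in
the entropy itself. -/
theorem result (n : ℕ) (K L : Set (EuclideanSpace ℝ (Fin n)))
    (hK : IsSymBody K) (hL : IsSymBody L) :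
    (∀ δ : ℝ, 0 < δ → δ ≤ 1 →
      Real.log (coverNum K L) ≤ (2 ^ 25 / δ ^ 2) *
          Real.log (coverNum (polarBody L) ((2 ^ 25 / δ ^ 2)⁻¹ • polarBody K)) ^ (1 + δ) ∧
        Real.log (coverNum (polarBody L) ((2 ^ 25 / δ ^ 2) • polarBody K)) ≤
          (2 ^ 25 / δ ^ 2) * Real.log (coverNum K L) ^ (1 + δ)) ∧
    (∀ R : ℝ, 0 ≤ R →
      (Real.log (coverNum (polarBody L)
            ((2 ^ 25 * (1 + Real.log (2 + R)) ^ 2)⁻¹ • polarBody K)) ≤ R →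
          Real.log (coverNum K L) ≤ 2 ^ 25 * (1 + Real.log (2 + R)) ^ 2 * R) ∧
        (Real.log (coverNum K L) ≤ R →
          Real.log (coverNum (polarBody L)
              ((2 ^ 25 * (1 + Real.log (2 + R)) ^ 2) • polarBody K)) ≤
            2 ^ 25 * (1 + Real.log (2 + R)) ^ 2 * R)) := by
  constructor
  · intro δ hδ hδ1
    obtain ⟨k, hk1, hkδ, hk2⟩ : ∃ k : ℕ, 1 ≤ k ∧ 1 / (k : ℝ) ≤ δ ∧ (k : ℝ) ≤ 2 / δ := by
      have h1δ : 1 ≤ 1 / δ := by rw [le_div_iff₀ hδ]; linarith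
      have hceil : 1 / δ ≤ (⌈1 / δ⌉₊ : ℝ) := Nat.le_ceil _
      refine ⟨⌈1 / δ⌉₊, ?_, ?_, ?_⟩
      · have : (1 : ℝ) ≤ (⌈1 / δ⌉₊ : ℝ) := h1δ.trans hceil
        exact_mod_cast this
      · have h0 : (0 : ℝ) < (⌈1 / δ⌉₊ : ℝ) := by linarith
        rw [div_le_iff₀ h0]
        rw [div_le_iff₀ hδ] at hceil
        linarith
      · have h3 := Nat.ceil_lt_add_one (show 0 ≤ 1 / δ by positivity)
        have h4 : 2 / δ = 1 / δ + 1 / δ := by ring
        rw [h4]; linarith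
    have hkR : (1 : ℝ) ≤ k := by exact_mod_cast hk1
    have hk0 : (0 : ℝ) ≤ k := by linarith
    obtain ⟨j, hj, hj1, hj2⟩ := const_bound k hk1
    have hksq : (k : ℝ) ^ 2 ≤ 4 / δ ^ 2 := by
      calc (k : ℝ) ^ 2 ≤ (2 / δ) ^ 2 := pow_le_pow_left₀ hk0 hk2 2
        _ = 4 / δ ^ 2 := by rw [div_pow]; norm_num
    have hq : (0 : ℝ) ≤ 1 / (k : ℝ) := by positivity
    have hpos : (0 : ℝ) < 2 ^ (18 + 2 * j) := by positivity
    have hscale : (2 : ℝ) ^ (18 + 2 * j) ≤ 2 ^ 25 / δ ^ 2 := by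
      calc (2 : ℝ) ^ (18 + 2 * j) ≤ 2 ^ 20 * (k : ℝ) ^ 2 := hj1
        _ ≤ 2 ^ 20 * (4 / δ ^ 2) := by gcongr
        _ = 2 ^ 22 * (1 / δ ^ 2) := by ring
        _ ≤ 2 ^ 25 * (1 / δ ^ 2) := by gcongr <;> norm_num
        _ = 2 ^ 25 / δ ^ 2 := by ring
    have h2δ : (2 : ℝ) ^ (1 + δ) ≤ 4 := by
      calc (2 : ℝ) ^ (1 + δ) ≤ 2 ^ (2 : ℝ) :=
            Real.rpow_le_rpow_of_exponent_le (by norm_num) (by linarith)
        _ = 4 := by rw [Real.rpow_two]; norm_num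
    have hcst : 2 ^ 13 * (k : ℝ) * (11 + j) ^ 2 * 2 ^ (1 + δ) ≤ 2 ^ 25 / δ ^ 2 := by
      calc 2 ^ 13 * (k : ℝ) * (11 + j) ^ 2 * 2 ^ (1 + δ)
          ≤ 2 ^ 13 * (k : ℝ) * (144 * k) * 4 := by gcongr
        _ = (2 ^ 13 * 576) * (k : ℝ) ^ 2 := by ring
        _ ≤ (2 ^ 13 * 576) * (4 / δ ^ 2) := by gcongr
        _ = (2 ^ 13 * 2304) * (1 / δ ^ 2) := by ring
        _ ≤ 2 ^ 25 * (1 / δ ^ 2) := by gcongr; norm_num
        _ = 2 ^ 25 / δ ^ 2 := by ring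
    have hmain : ∀ N : ℕ, 2 ^ 13 * (k : ℝ) * (11 + j) ^ 2 * Real.log N ^ (1 + 1 / (k : ℝ)) ≤
        2 ^ 25 / δ ^ 2 * Real.log N ^ (1 + δ) := by
      intro N
      have h0 : 0 ≤ Real.log N ^ (1 + δ) := Real.rpow_nonneg (Real.log_natCast_nonneg _) _
      calc 2 ^ 13 * (k : ℝ) * (11 + j) ^ 2 * Real.log N ^ (1 + 1 / (k : ℝ))
          ≤ 2 ^ 13 * (k : ℝ) * (11 + j) ^ 2 * (2 ^ (1 + δ) * Real.log N ^ (1 + δ)) :=
            mul_le_mul_of_nonneg_left (rpow_log_le hq hkδ) (by positivity)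
        _ = 2 ^ 13 * (k : ℝ) * (11 + j) ^ 2 * 2 ^ (1 + δ) * Real.log N ^ (1 + δ) := by ring
        _ ≤ 2 ^ 25 / δ ^ 2 * Real.log N ^ (1 + δ) := mul_le_mul_of_nonneg_right hcst h0
    have hpos' : (0 : ℝ) < 2 ^ 25 / δ ^ 2 := by positivity
    constructor
    · refine (dual_left hK hL hk1 hj).trans ((hmain _).trans ?_)
      apply mul_le_mul_of_nonneg_left _ hpos'.le
      apply Real.rpow_le_rpow (Real.log_natCast_nonneg _) _ (by linarith)
      exact log_coverNum_anti hL.polar hK.polar (inv_pos.2 hpos') (inv_anti₀ hpos hscale)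
    · exact (log_coverNum_anti hL.polar hK.polar hpos hscale).trans
        ((dual_right hK hL hk1 hj).trans (hmain _))
  · intro R hR
    have hlog : 0 < Real.log (2 + R) := Real.log_pos (by linarith)
    set ℓ := 1 + Real.log (2 + R) with hℓ
    set k := ⌈Real.log (2 + R)⌉₊ with hkdef
    have hk1 : 1 ≤ k := Nat.one_le_iff_ne_zero.2 (by
      intro h0
      rw [hkdef, Nat.ceil_eq_zero] at h0
      linarith)
    have hkge : Real.log (2 + R) ≤ k := Nat.le_ceil _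
    have hkle : (k : ℝ) ≤ ℓ := by
      have := Nat.ceil_lt_add_one hlog.le
      rw [hℓ]; linarith
    have hk0 : (0 : ℝ) ≤ k := Nat.cast_nonneg _
    have hℓ0 : 0 ≤ ℓ := hk0.trans hkle
    obtain ⟨j, hj, hj1, hj2⟩ := const_bound k hk1
    have hsq : (k : ℝ) ^ 2 ≤ ℓ ^ 2 := pow_le_pow_left₀ hk0 hkle 2
    have hscale : (2 : ℝ) ^ (18 + 2 * j) ≤ 2 ^ 25 * ℓ ^ 2 := by
      have : 0 ≤ ℓ ^ 2 := by positivity
      linarith
    have hpos : (0 : ℝ) < 2 ^ (18 + 2 * j) := by positivity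
    have hpos' : (0 : ℝ) < 2 ^ 25 * ℓ ^ 2 := lt_of_lt_of_le hpos hscale
    have hmain : ∀ x : ℝ, 0 ≤ x → x ≤ R →
        2 ^ 13 * k * (11 + j) ^ 2 * x ^ (1 + 1 / (k : ℝ)) ≤ 2 ^ 25 * ℓ ^ 2 * R := by
      intro x hx hxR
      have h1 : x ^ (1 + 1 / (k : ℝ)) ≤ 3 * R :=
        (Real.rpow_le_rpow hx hxR (by positivity)).trans (rpow_le_three hR hk1 hkge)
      calc 2 ^ 13 * k * (11 + j) ^ 2 * x ^ (1 + 1 / (k : ℝ))
          ≤ 2 ^ 13 * k * (144 * k) * (3 * R) := by gcongr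
        _ = (2 ^ 13 * 432) * (k : ℝ) ^ 2 * R := by ring
        _ ≤ 2 ^ 25 * ℓ ^ 2 * R := by
            apply mul_le_mul_of_nonneg_right _ hR
            apply mul_le_mul (by norm_num) hsq (by positivity) (by norm_num)
    constructor
    · intro h
      refine (dual_left hK hL hk1 hj).trans ?_
      apply hmain _ (Real.log_natCast_nonneg _)
      refine le_trans (log_coverNum_anti hL.polar hK.polar (inv_pos.2 hpos') ?_) h
      exact inv_anti₀ hpos hscale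
    · intro h
      refine (log_coverNum_anti hL.polar hK.polar hpos hscale).trans ?_
      refine (dual_right hK hL hk1 hj).trans ?_
      exact hmain _ (Real.log_natCast_nonneg _) h

end Vale.Agent.Results.P126.NearLinearDuality
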