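import Vale.Agent.P126.Assembly

open scoped Pointwise RealInnerProductSpace

namespace Vale.Agent.Results.P126.QuadraticDuality

open Vale.Agent.P126

/-- Dimension-free duality of metric entropy at a constant scale with a quadratic loss. -/
theorem result (n : ℕ) (K L : Set (EuclideanSpace ℝ (Fin n)))
    (hK : IsSymBody K) (hL : IsSymBody L) :
    Real.log (coverNum K L) ≤
        2 ^ 26 * Real.log (coverNum (polarBody L) ((2 ^ 18 : ℝ)⁻¹ • polarBody K)) ^ 2 ∧
      Real.log (coverNum (polarBody L) ((2 ^ 18 : ℝ) • polarBody K)) ≤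
        2 ^ 26 * Real.log (coverNum K L) ^ 2 := by
  constructor
  · have h := main_half hK hL
    rw [psi, one_div] at h
    exact h
  · have ha : (0 : ℝ) < 2 ^ 18 := by positivity
    have h := main_half hL.polar (hK.polar.smul ha)
    rw [psi, polarBody_smul ha,
      polarBody_polarBody hK.convex hK.compact.isClosed hK.zero_mem,
      polarBody_polarBody hL.convex hL.compact.isClosed hL.zero_mem, one_div] at h
    have hcov : coverNum ((2 ^ 18 : ℝ)⁻¹ • K) ((2 ^ 18 : ℝ)⁻¹ • L) ≤ coverNum K L := by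
      obtain ⟨m, hm⟩ := exists_cov (A := K) (B := L) hK.compact hL.nonempty_interior
      obtain ⟨t, ht, hc⟩ := (cov_coverNum hm).exists_mem
      classical
      apply coverNum_le
      refine Cov.of_forall (t.image fun x => (2 ^ 18 : ℝ)⁻¹ • x)
        (Finset.card_image_le.trans ht) ?_
      rintro _ ⟨y, hy, rfl⟩
      obtain ⟨x, hx, hyx⟩ := hc y hy
      exact ⟨_, Finset.mem_image_of_mem _ hx, ⟨_, hyx, by simp only; rw [smul_sub]⟩⟩
    have hcov' : Real.log (coverNum ((2 ^ 18 : ℝ)⁻¹ • K) ((2 ^ 18 : ℝ)⁻¹ • L)) ≤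
        Real.log (coverNum K L) := by
      rcases Nat.eq_zero_or_pos (coverNum ((2 ^ 18 : ℝ)⁻¹ • K) ((2 ^ 18 : ℝ)⁻¹ • L)) with h0 | hp
      · rw [h0]; simpa using Real.log_natCast_nonneg _
      · exact Real.log_le_log (by exact_mod_cast hp) (by exact_mod_cast hcov)
    have hnn : 0 ≤ Real.log (coverNum ((2 ^ 18 : ℝ)⁻¹ • K) ((2 ^ 18 : ℝ)⁻¹ • L)) :=
      Real.log_natCast_nonneg _
    have hsq := pow_le_pow_left₀ hnn hcov' 2
    exact h.trans (mul_le_mul_of_nonneg_left hsq (by positivity))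

end Vale.Agent.Results.P126.QuadraticDuality
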